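import Vale.Agent.P359.Defs
import Vale.Agent.P359.Final

namespace Vale.Agent.Results.P359.Gap

open Vale.Agent.P359

theorem result : ∃ δ : ℝ, 0 < δ ∧ ∃ N₀ : ℕ, ∀ N : ℕ, N₀ ≤ N →
    ∀ ψ : Tens (3 * (N - 1)) (Fin N), IsFermionic ψ →
      δ * reInner ψ (ψ - projOn {laughlin N} ψ) ≤ reInner ψ (ham (3 * (N - 1)) N ψ) :=
  laughlin_gap

end Vale.Agent.Results.P359.Gap
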